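import Vale.Agent.P096.Main

namespace Vale.Agent.Results.P096.LinearLift

universe u

variable {H : Type u} [NormedAddCommGroup H] [InnerProductSpace ℂ H] [CompleteSpace H]

/-- The closed unit ball of `M` in operator norm. -/
def ball (M : VonNeumannAlgebra H) : Set (H →L[ℂ] H) := {x | x ∈ M ∧ ‖x‖ ≤ 1}

/-- The Kadison-Kastler distance: Hausdorff distance of the closed unit balls in operator norm. -/
noncomputable def dKK (M N : VonNeumannAlgebra H) : ℝ := Metric.hausdorffDist (ball M) (ball N)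

/-- There is a unitary `u` with `u M u* = N` and `‖u - 1‖ < ε`. -/
def Conj (M N : VonNeumannAlgebra H) (ε : ℝ) : Prop :=
  ∃ u ∈ unitary (H →L[ℂ] H), (∀ y, y ∈ N ↔ ∃ x ∈ M, u * x * star u = y) ∧ ‖u - 1‖ < ε

/-- `T` is complex linear on the subspace `S` (its values off `S` play no role). -/
def LinOn (S : Set (H →L[ℂ] H)) (T : (H →L[ℂ] H) → (H →L[ℂ] H)) : Prop :=
  ∀ (c : ℂ), ∀ x ∈ S, ∀ y ∈ S, T (c • x + y) = c • T x + T y

/-- There is a complex linear map `T : M → N` with `‖T x - x‖ ≤ δ ‖x‖`. -/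
def Lift (M N : VonNeumannAlgebra H) (δ : ℝ) : Prop :=
  ∃ T : (H →L[ℂ] H) → (H →L[ℂ] H), LinOn M T ∧ ∀ x ∈ M, T x ∈ N ∧ ‖T x - x‖ ≤ δ * ‖x‖

/-- There is a linear projection of norm at most `C` onto `N`, defined on a linear subspace of
`B(H)` containing `M` and `N`. -/
def Proj (M N : VonNeumannAlgebra H) (C : ℝ) : Prop :=
  ∃ (P : Submodule ℂ (H →L[ℂ] H)) (E : (H →L[ℂ] H) → (H →L[ℂ] H)), (∀ x ∈ M, x ∈ P) ∧
    (∀ y ∈ N, y ∈ P) ∧ LinOn P E ∧ (∀ x ∈ P, E x ∈ N ∧ ‖E x‖ ≤ C * ‖x‖) ∧ ∀ y ∈ N, E y = y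

theorem LinOn.lin {P : Submodule ℂ (H →L[ℂ] H)} {T : (H →L[ℂ] H) → (H →L[ℂ] H)}
    (h : LinOn P T) : ∃ L : P →ₗ[ℂ] (H →L[ℂ] H), ∀ x, L x = T x := by
  have h0 : T 0 = 0 := by
    have := h 1 0 P.zero_mem 0 P.zero_mem
    rw [one_smul, one_smul, add_zero] at this
    exact left_eq_add.1 this
  refine ⟨⟨⟨fun x => T x, fun x y => ?_⟩, fun c x => ?_⟩, fun _ => rfl⟩
  · simpa using h 1 x x.2 y y.2
  · simpa [h0] using h c x x.2 0 P.zero_mem

/-- Close algebras with a linear lift are conjugate by a unitary close to the identity. -/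
def LiftStable : Prop :=
  ∀ ε : ℝ, 0 < ε → ∃ δ : ℝ, 0 < δ ∧ ∀ (H : Type u) [NormedAddCommGroup H]
    [InnerProductSpace ℂ H] [CompleteSpace H] (M N : VonNeumannAlgebra H),
    dKK M N < δ → Lift M N δ → Conj M N ε

/-- Close algebras with a bounded projection are conjugate by a unitary close to the identity. -/
def ProjStable : Prop :=
  ∀ C ε : ℝ, 0 ≤ C → 0 < ε → ∃ δ : ℝ, 0 < δ ∧ ∀ (H : Type u) [NormedAddCommGroup H]
    [InnerProductSpace ℂ H] [CompleteSpace H] (M N : VonNeumannAlgebra H),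
    dKK M N < δ → Proj M N C ∨ Proj M.commutant N.commutant C → Conj M N ε

/-- Taking commutants is Lipschitz with a universal constant. -/
def CommLip : Prop :=
  ∃ K : ℝ, ∀ (H : Type u) [NormedAddCommGroup H] [InnerProductSpace ℂ H] [CompleteSpace H]
    (M N : VonNeumannAlgebra H), dKK M.commutant N.commutant ≤ K * dKK M N

theorem result : LiftStable.{u} ∧ ProjStable.{u} ∧ CommLip.{u} := by
  have A : ∀ ε : ℝ, 0 < ε → ∃ δ : ℝ, 0 < δ ∧ ∀ (H : Type u) [NormedAddCommGroup H]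
      [InnerProductSpace ℂ H] [CompleteSpace H] (M N : VonNeumannAlgebra H),
      dKK M N < δ → Lift M N δ → Conj M N ε := by
    intro ε hε
    obtain ⟨γ, g0, g1, g2, g3⟩ := P096.exists_small hε
    refine ⟨γ, g0, fun H _ _ _ M N hd ⟨T, t1, t2⟩ => ?_⟩
    obtain ⟨L, hL⟩ := LinOn.lin (P := M.toStarSubalgebra.toSubalgebra.toSubmodule) t1
    obtain ⟨u, hu, u1, u2⟩ := P096.main_lin L g0.le g1 g2
      (fun x => (hL x).symm ▸ (t2 x x.2).1) (fun x => (hL x).symm ▸ (t2 x x.2).2)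
      (P096.near_of_dist hd).2
    exact ⟨u, hu, u1, u2.trans_lt g3⟩
  have B : ∀ C ε : ℝ, 0 ≤ C → 0 < ε → ∃ δ : ℝ, 0 < δ ∧ ∀ (H : Type u) [NormedAddCommGroup H]
      [InnerProductSpace ℂ H] [CompleteSpace H] (M N : VonNeumannAlgebra H),
      dKK M N < δ → Proj M N C → Conj M N ε := by
    intro C ε hC hε
    obtain ⟨δ, d0, h⟩ := A ε hε
    refine ⟨δ / (C + 1), by positivity, fun H _ _ _ M N hd ⟨P, E, e1, e2, e3, e4, e5⟩ => ?_⟩
    refine h H M N (hd.trans_le (div_le_self d0.le (by linarith)))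
      ⟨E, fun c x hx y hy => e3 c x (e1 x hx) y (e1 y hy), fun x hx => ⟨(e4 x (e1 x hx)).1, ?_⟩⟩
    obtain ⟨y, hy, hxy⟩ := (P096.near_of_dist hd).1 x hx
    have a0 := e3 (-1) y (e2 y hy) x (e1 x hx)
    rw [e5 y hy, neg_one_smul, neg_add_eq_sub, neg_add_eq_sub] at a0
    have a1 := (e4 (x - y) (P.sub_mem (e1 x hx) (e2 y hy))).2
    have a2 := mul_le_mul_of_nonneg_left hxy hC
    have a3 : E x - x = E (x - y) - (x - y) := by rw [a0]; abel
    have a4 : δ * ‖x‖ = C * (δ / (C + 1) * ‖x‖) + δ / (C + 1) * ‖x‖ := by field_simp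
    rw [a3]
    linarith [norm_sub_le (E (x - y)) (x - y)]
  refine ⟨A, fun C ε hC hε => ?_, 4 * P096.KD, fun H _ _ _ M N => P096.comm_dist M N⟩
  obtain ⟨δ, d0, h⟩ := B C ε hC hε
  have hK := P096.one_le_KD
  refine ⟨δ / (4 * P096.KD), by positivity, fun H _ _ _ M N hd hp => ?_⟩
  rcases hp with hp | hp
  · exact h H M N (hd.trans_le (div_le_self d0.le (by linarith))) hp
  · have h1 : dKK M.commutant N.commutant < δ := by
      refine (P096.comm_dist M N).trans_lt ?_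
      rw [lt_div_iff₀ (by positivity), mul_comm] at hd
      exact hd
    obtain ⟨u, hu, u1, u2⟩ := h H _ _ h1 hp
    refine ⟨u, hu, fun y => ?_, u2⟩
    simpa only [VonNeumannAlgebra.commutant_commutant] using P096.conj_comm hu u1 y

end Vale.Agent.Results.P096.LinearLift
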