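import Vale.Agent.P096H.Main
import Vale.Agent.P096H.Def2

namespace Vale.Agent.Results.P096.LinearNear

open Vale.Agent.P096H

universe u

theorem result :
    (∃ C : ℝ, ∀ (H : Type u) [NormedAddCommGroup H] [InnerProductSpace ℂ H] [CompleteSpace H]
      (M N : VonNeumannAlgebra H), kkd M.commutant N.commutant ≤ C * kkd M N) ∧
    ∀ ε K : ℝ, 0 < ε → ∃ δ : ℝ, 0 < δ ∧
      ∀ (H : Type u) [NormedAddCommGroup H] [InnerProductSpace ℂ H] [CompleteSpace H]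
        (M N : VonNeumannAlgebra H), kkd M N < δ →
        (Hyp δ K M N ∨ Hyp δ K M.commutant N.commutant) →
        UConj ε (M : Set (H →L[ℂ] H)) (N : Set (H →L[ℂ] H)) := by
  refine ⟨⟨_, fun H _ _ _ M N => kk_commutant M N⟩, fun ε K hε => ?_⟩
  obtain ⟨γ, g0, g1, g2, g3⟩ := small hε
  obtain ⟨C, hC, C0⟩ : ∃ C : ℝ, C = 16 * (Vale.Agent.P104.K2 3 + 1) ^ 2 ∧ 0 ≤ C :=
    ⟨_, rfl, by positivity⟩
  have k0 := abs_nonneg K
  obtain ⟨δ, d0, e⟩ : ∃ δ : ℝ, 0 < δ ∧ (|K| + 1) * ((C + 1) * δ) = γ :=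
    ⟨γ / ((|K| + 1) * (C + 1)), by positivity, by field_simp⟩
  have a1 : δ ≤ (C + 1) * δ := by nlinarith [mul_nonneg C0 d0.le]
  have a2 : (C + 1) * δ ≤ γ := by nlinarith [mul_nonneg k0 (d0.le.trans a1)]
  refine ⟨δ, d0, fun H _ _ _ M N (h : kk M N < δ) hl => ?_⟩
  have t : ∀ {P Q : VonNeumannAlgebra H}, Hyp δ K P Q → LinNear δ P Q ∨ Compl K P Q :=
    fun h => h
  have h' : kk M.commutant N.commutant < (C + 1) * δ := by
    have := kk_commutant M N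
    rw [← hC] at this
    nlinarith [mul_le_mul_of_nonneg_left h.le C0]
  have key : ∃ u ∈ unitary (H →L[ℂ] H), Conj u M N ∧
      ‖u - 1‖ ≤ 10 * (4 * (Vale.Agent.P104.K2 3 + 1) ^ 2 * (10 ^ 10 * γ)) := by
    have c : LinNear γ M.commutant N.commutant → ∃ u ∈ unitary (H →L[ℂ] H), Conj u M N ∧
        ‖u - 1‖ ≤ 10 * (4 * (Vale.Agent.P104.K2 3 + 1) ^ 2 * (10 ^ 10 * γ)) := fun hl => by
      obtain ⟨u, u1, u2, u3⟩ := core g1 g2 (h'.trans_le a2) hl
      have := conj_comm u1 u2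
      rw [VonNeumannAlgebra.commutant_commutant, VonNeumannAlgebra.commutant_commutant] at this
      exact ⟨u, u1, this, u3⟩
    rcases hl.imp t t with (hl | hl) | hl | hl
    · exact core g1 g2 (h.trans_le (a1.trans a2)) (lin_mono (a1.trans a2) hl)
    · exact core g1 g2 (h.trans_le (a1.trans a2)) (e ▸ compl_lin (h.trans_le a1) hl)
    · exact c (lin_mono (a1.trans a2) hl)
    · exact c (e ▸ compl_lin h' hl)
  obtain ⟨u, u1, u2, u3⟩ := key
  exact ⟨u, u1, Set.ext fun y => (u2 y).symm, u3.trans_lt g3⟩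

end Vale.Agent.Results.P096.LinearNear
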